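import Vale.Agent.Lib.P150.Fin

/-!
P150: Glauber dynamics for the Sherrington-Kirkpatrick model at inverse temperature `b < 1/2`.
With probability tending to one over the disorder, the spectral gap is at least `1 - 2 b - e`
for all external fields simultaneously (and at most `1` at zero field), and the mixing time is
`O(log n)` (for an external field `h`: `O(log (n + sum |h i|))`, simultaneously for all `h`).
-/

namespace Vale.Agent.Results.P150.HighTemperature

open MeasureTheory ProbabilityTheory Filter Topology Vale.Agent.P150

/-- For every fixed `0 ≤ b < 1/2`, with probability tending to one over the disorder: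
the spectral gap of heat-bath dynamics is at least `1 - 2 b - e` for every external field, it is
at most one at zero field, and the mixing time from the worst start is at most
`C log (n + sum |h i|)` for every external field, in particular at most `C log n` at zero field. -/
theorem result (b : ℝ) (hb0 : 0 ≤ b) (hb : b < 1 / 2) :
    (∀ e : ℝ, 0 < e → Tendsto (fun n : ℕ => dis n
      {g | ¬ ∀ h : Fin n → ℝ, 1 - 2 * b - e ≤ gap (sk b g) h}) atTop (𝓝 0)) ∧
    (∀ n : ℕ, 0 < n → ∀ g, gap (sk (n := n) b g) 0 ≤ 1) ∧
    (∃ C : ℝ, Tendsto (fun n : ℕ => dis n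
      {g | ¬ tmix (sk b g) 0 ≤ C * Real.log n}) atTop (𝓝 0)) ∧
    (∃ C : ℝ, Tendsto (fun n : ℕ => dis n
      {g | ¬ ∀ h : Fin n → ℝ, tmix (sk b g) h ≤ C * Real.log (n + ∑ i, |h i|)})
      atTop (𝓝 0)) := by
  obtain ⟨h1, h2, C, h3⟩ := sk_final b hb0 hb
  refine ⟨h1, h2, ⟨C, ?_⟩, ⟨C, h3⟩⟩
  refine tendsto_of_tendsto_of_tendsto_of_le_of_le tendsto_const_nhds h3
    (fun n => zero_le) (fun n => measure_mono ?_)
  intro g hg hall
  apply hg
  have := hall 0
  simpa using this

end Vale.Agent.Results.P150.HighTemperature
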