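import Vale.Agent.Lib.P150.FinAT
import Vale.Agent.Lib.P150.TvdMono

/-!
P150: Glauber dynamics for the Sherrington-Kirkpatrick model.
Part 1 (every `b ≥ 0`): `gap ≤ 1`, the set of times in the definition of the mixing time is
nonempty, and the mixing time is at least `a log n` with probability tending to one.
Part 2 (`b < 1/2`): with probability tending to one the gap is at least `1 - 2 b - e` and entropy
tensorises approximately with a constant depending only on `b`, for all external fields
simultaneously, and the mixing time is `Θ(log n)`.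
-/

namespace Vale.Agent.Results.P150.MixingOrder

open MeasureTheory ProbabilityTheory Filter Topology Vale.Agent.P150

/-- Order of the mixing time and of the spectral gap of Glauber dynamics for the
Sherrington-Kirkpatrick model: lower bounds at every temperature, matching upper bounds for
`b < 1/2`. -/
theorem result (b : ℝ) (hb0 : 0 ≤ b) :
    -- every inverse temperature: the gap at zero field is at most one
    (∀ n : ℕ, 0 < n → ∀ g, gap (sk (n := n) b g) 0 ≤ 1) ∧
    -- every inverse temperature: the chain mixes in finite time, from then on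
    (∀ n : ℕ, 0 < n → ∀ g, ∀ h : Fin n → ℝ,
      (∃ t : ℝ, 0 ≤ t ∧ ∀ x, tvd (sk b g) h t x ≤ 1 / 4) ∧
      ∀ t : ℝ, tmix (sk b g) h < t → ∀ x, tvd (sk b g) h t x ≤ 1 / 4) ∧
    -- every inverse temperature: mixing takes time at least `a log n`
    (∃ a : ℝ, 0 < a ∧
      Tendsto (fun n : ℕ => dis n {g | ¬ a * Real.log n ≤ tmix (sk b g) 0}) atTop (𝓝 0) ∧
      Tendsto (fun n : ℕ => dis n {g | ¬ ∀ t : ℝ, 0 ≤ t → t ≤ a * Real.log n →
        ∃ x, 1 / 4 < tvd (sk b g) 0 t x}) atTop (𝓝 0)) ∧
    -- high temperature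
    (b < 1 / 2 →
      -- spectral gap, all external fields
      (∀ e : ℝ, 0 < e → Tendsto (fun n : ℕ => dis n
        {g | ¬ ∀ h : Fin n → ℝ, 1 - 2 * b - e ≤ gap (sk b g) h}) atTop (𝓝 0)) ∧
      -- approximate tensorisation of entropy, all external fields
      (∃ K : ℝ, Tendsto (fun n : ℕ => dis n
        {g | ¬ ∀ h : Fin n → ℝ, AT (wt (sk b g) h) K}) atTop (𝓝 0)) ∧
      -- mixing, all external fields
      (∃ C : ℝ, Tendsto (fun n : ℕ => dis n
        {g | ¬ ∀ h : Fin n → ℝ, ∀ t : ℝ, C * Real.log (n + ∑ i, |h i|) ≤ t →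
          ∀ x, tvd (sk b g) h t x ≤ 1 / 4}) atTop (𝓝 0)) ∧
      -- the mixing time is of order `log n`
      (∃ a C : ℝ, 0 < a ∧ Tendsto (fun n : ℕ => dis n
        {g | ¬ (a * Real.log n ≤ tmix (sk b g) 0 ∧ tmix (sk b g) 0 ≤ C * Real.log n)})
        atTop (𝓝 0))) := by
  obtain ⟨a, ha, hlow⟩ := low_tmix b hb0
  obtain ⟨a', ha', hlow'⟩ := low_tvd b hb0
  refine ⟨fun n hn g => gap_le_one hn _ (sk_symm b g) (sk_diag b g), fun n hn g h =>
    ⟨mix_nonempty hn _ h (sk_symm b g) (sk_diag b g),
      fun t ht x => tvd_of_tmix_lt hn _ h (sk_symm b g) (sk_diag b g) t ht x⟩, ?_, ?_⟩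
  · refine ⟨min a a', lt_min ha ha', ?_, ?_⟩
    · refine fin_tends _ (fun n g => a * Real.log n ≤ tmix (sk b g) 0) hlow ?_
      filter_upwards [eventually_gt_atTop 0] with n hn g hg
      refine le_trans (mul_le_mul_of_nonneg_right (min_le_left _ _) ?_) hg
      exact Real.log_nonneg (by exact_mod_cast hn)
    · refine fin_tends _ (fun n g => ∀ t : ℝ, 0 ≤ t → t ≤ a' * Real.log n →
        ∃ x, 1 / 4 < tvd (sk b g) 0 t x) hlow' ?_
      filter_upwards [eventually_gt_atTop 0] with n hn g hg t ht0 ht
      refine hg t ht0 (le_trans ht (mul_le_mul_of_nonneg_right (min_le_right _ _) ?_))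
      exact Real.log_nonneg (by exact_mod_cast hn)
  · intro hb
    obtain ⟨h1, _, C, h3⟩ := sk_final b hb0 hb
    refine ⟨h1, sk_at b hb0 hb, ⟨C + 1, ?_⟩, ⟨a, C, ha, ?_⟩⟩
    · refine fin_tends _ (fun n g => ∀ h : Fin n → ℝ,
        tmix (sk b g) h ≤ C * Real.log (n + ∑ i, |h i|)) h3 ?_
      filter_upwards [eventually_gt_atTop 1] with n hn g hg h t ht x
      refine tvd_of_tmix_lt (by omega) _ h (sk_symm b g) (sk_diag b g) t ?_ x
      have hn2 : (2 : ℝ) ≤ n := by exact_mod_cast hn
      have hs : 0 ≤ ∑ i, |h i| := Finset.sum_nonneg fun i _ => abs_nonneg _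
      have hlog : 0 < Real.log (n + ∑ i, |h i|) := Real.log_pos (by linarith)
      have := hg h
      linarith
    · have hsum := hlow.add h3
      rw [add_zero] at hsum
      refine tendsto_of_tendsto_of_tendsto_of_le_of_le tendsto_const_nhds hsum
        (fun n => zero_le) (fun n => ?_)
      refine le_trans (measure_mono ?_) (measure_union_le _ _)
      intro g hg
      by_cases h1 : a * Real.log n ≤ tmix (sk b g) 0
      · by_cases h2 : ∀ h : Fin n → ℝ, tmix (sk b g) h ≤ C * Real.log (n + ∑ i, |h i|)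
        · exfalso
          have := h2 0
          exact hg ⟨h1, by simpa using this⟩
        · exact Or.inr h2
      · exact Or.inl h1

end Vale.Agent.Results.P150.MixingOrder
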